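import Vale.Agent.P323.H533.Cat
import Vale.Agent.P323.Z.Step

/-!
# Word facts: the local forms of (N0)-(N2), (G0), (G1), (G3)-(G6)

`t : L.T` a letter, `om0 : L.H t b`, `G hG t om0` the generator.
-/

namespace Vale.Agent.P323.H885

open CategoryTheory Vale.Agent.P323.Z Vale.Agent.P323.H533 Vale.Agent.P323.H533.Letters

universe v u w w'

set_option linter.checkUnivs false

section gen

variable {D : Type u} [Category.{v} D] {L : Letters.{v, u, w, w'} D} (hG : L.Good)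

/-- Pullback squares of `D` stay pullback squares in `D[F]`. -/
theorem pull_old {P x y z : D} {p : P ⟶ x} {q : P ⟶ y} {f : x ⟶ z} {g : y ⟶ z}
    (h : IsPB p q f g) : IsPB (inc hG p) (inc hG q) (inc hG f) (inc hG g) := by
  refine ⟨?_, ?_⟩
  · rw [← inc_comp, ← inc_comp, h.1]
  · intro e u v e1
    rcases cases_hom hG u with ⟨u', rfl⟩ | ⟨t, om, m, hm, rfl⟩
    · obtain ⟨v', rfl, h2⟩ := old_div hG (d := e.un) v g (u' ≫ f) e1.symm
      obtain ⟨w, hw1, hw2⟩ := h.2 u' v' h2.symm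
      exact ⟨inc hG w, by rw [← inc_comp, hw1], by rw [← inc_comp, hw2]⟩
    · rw [Category.assoc, G_inc] at e1
      obtain ⟨om', h1, rfl⟩ := new_fac hG t _ hm g v e1
      obtain ⟨k, hk1, hk2⟩ := hG.H_pb t h om om' h1.symm
      exact ⟨m ≫ G hG t k, by rw [Category.assoc, G_inc, hk1],
        by rw [Category.assoc, G_inc, hk2]⟩

theorem thru_inc {x y z : D} {f : x ⟶ z} {g : y ⟶ z} (h : Thru f g) :
    Thru (inc hG f) (inc hG g) := by
  obtain ⟨k, rfl⟩ := h
  exact ⟨inc hG k, rfl⟩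

theorem thru_of_inc {x y z : D} {f : x ⟶ z} {g : y ⟶ z} (h : Thru (inc hG f) (inc hG g)) :
    Thru f g := by
  obtain ⟨k, hk⟩ := h
  obtain ⟨k', -, h2⟩ := old_div hG k g f hk
  exact ⟨k', h2⟩

/-- The pullback of a map `m` with an old map `q` through which `m` does not factor has both
projections old. -/
theorem pull_new_old {d x : D} (m : ob hG d ⟶ ob hG x) {e : D} (q : e ⟶ x)
    (h : ¬ Thru m (inc hG q)) :
    ∃ (P : D) (π : P ⟶ d) (π' : P ⟶ e), IsPB (inc hG π) (inc hG π') m (inc hG q) := by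
  revert e
  refine ind_hom hG (d := ob hG d) (P := fun {x} m => ∀ {e : D} (q : e ⟶ x),
    ¬ Thru m (inc hG q) →
    ∃ (P : D) (π : P ⟶ d) (π' : P ⟶ e), IsPB (inc hG π) (inc hG π') m (inc hG q)) ?_ ?_ m
  · intro x g e q _
    obtain ⟨P, p, p', hP⟩ := hG.pb g q
    exact ⟨P, p, p', pull_old hG hP⟩
  · intro x t om m hm ih e q hq
    obtain ⟨K, g, h, hK⟩ := hG.pb (L.bet t om) q
    have hm' : ¬ Thru m (inc hG (g ≫ L.al t)) := by
      rintro ⟨k, hk⟩
      exact hm ⟨k ≫ inc hG g, by rw [Category.assoc, ← inc_comp, hk]⟩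
    obtain ⟨P, π, π', hP⟩ := ih (g ≫ L.al t) hm'
    refine ⟨P, π, π' ≫ h, ?_, ?_⟩
    · rw [← Category.assoc, hP.1, Category.assoc, inc_comp hG g, Category.assoc, al_G, ← inc_comp,
        ← inc_comp, ← inc_comp, hK.1, Category.assoc]
    · intro f u v e1
      by_cases hu : Thru (u ≫ m) (inc hG (L.al t))
      · obtain ⟨k, hk⟩ := hu
        have e2 : k ≫ inc hG (L.bet t om) = v ≫ inc hG q := by
          rw [← e1, ← Category.assoc u, ← hk, Category.assoc, al_G]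
        obtain ⟨w, hw1, hw2⟩ := (pull_old hG hK).2 k v e2
        obtain ⟨w', hw1', hw2'⟩ := hP.2 u w (by
          rw [← hk, ← hw1, inc_comp, Category.assoc])
        exact ⟨w', hw1', by rw [inc_comp, ← Category.assoc, hw2', hw2]⟩
      · rw [← Category.assoc] at e1
        obtain ⟨om', h1, -⟩ := new_fac hG t om hu q v e1
        exact absurd ⟨m ≫ G hG t om', by rw [Category.assoc, G_inc, h1]⟩ hq

variable {t : L.T} {b : D} (om0 : L.H t b)

/-- (G0) on the level of `H`. -/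
theorem gen_inv {d : D} {s s' : d ⟶ b} (om : L.H t d) (h1 : L.hm t s om = om0)
    (h2 : L.hm t s' om = om0) :
    ∃ v : ob hG (L.c t) ⟶ ob hG d, v ≫ inc hG s = G hG t om0 ∧ v ≫ inc hG s' = G hG t om0 :=
  ⟨G hG t om, by rw [G_inc, h1], by rw [G_inc, h2]⟩

/-- The lift of the generator along `A` is named by the lift of `om0`. -/
theorem gen_lift {B : D} (A : B ⟶ b) (omA : L.H t B) (hA : L.hm t A omA = om0)
    (fA : ob hG (L.c t) ⟶ ob hG B) (hf : fA ≫ inc hG A = G hG t om0) : fA = G hG t omA := by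
  apply inc_cancel hG A
  rw [hf, G_inc, hA]

/-- (G6). -/
theorem G6 {f : D} (s : ob hG f ⟶ ob hG (L.c t)) (y : f ⟶ b)
    (e : s ≫ G hG t om0 = inc hG y) : Thru s (inc hG (L.al t)) := by
  by_contra h
  exact new_ne hG t om0 h y e

/-- (G4), contrapositive dichotomy on the level of `H`. -/
theorem G4 {d : D} (p : d ⟶ b) (h : ¬ ∃ om' : L.H t d, L.hm t p om' = om0) {f : WC hG}
    (g : f ⟶ ob hG d) (s : f ⟶ ob hG (L.c t)) (e : g ≫ inc hG p = s ≫ G hG t om0) :
    Thru s (inc hG (L.al t)) := by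
  by_contra hs
  obtain ⟨om', h1, -⟩ := new_fac hG t om0 hs p g e.symm
  exact h ⟨om', h1⟩

/-- (G1). -/
theorem G1 {B : D} (A : B ⟶ b) (omA : L.H t B) (hA : L.hm t A omA = om0)
    (fA : ob hG (L.c t) ⟶ ob hG B) (γA : L.a (L.n t + 1) ⟶ B)
    (hf : fA ≫ inc hG A = G hG t om0) (hγ : γA ≫ A = L.gam t om0)
    {b' e : D} (y : B ⟶ b') (y' : e ⟶ b') {f : WC hG} (s : f ⟶ ob hG (L.c t))
    (s' : f ⟶ ob hG e) (h : s ≫ fA ≫ inc hG y = s' ≫ inc hG y') :
    Thru s (inc hG (L.al t)) ∨ Thru (γA ≫ y) y' := by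
  by_cases hs : Thru s (inc hG (L.al t))
  · exact Or.inl hs
  · right
    rw [gen_lift hG om0 A omA hA fA hf, G_inc] at h
    obtain ⟨om', h1, -⟩ := new_fac hG t _ hs y' s' h
    have := hG.mono A
    have h2 : γA = L.gam t omA := by
      rw [← cancel_mono A, hγ, ← L.gam_nat, hA]
    exact ⟨L.gam t om', by rw [h2, ← L.gam_nat, ← L.gam_nat, h1]⟩

/-- (G5) on the level of `H`. -/
theorem G5 {B B' d : D} (A : B ⟶ b) (A' : B' ⟶ b) (omA : L.H t B) (omA' : L.H t B')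
    (hA : L.hm t A omA = om0) (hA' : L.hm t A' omA' = om0)
    (fA : ob hG (L.c t) ⟶ ob hG B) (fA' : ob hG (L.c t) ⟶ ob hG B')
    (hf : fA ≫ inc hG A = G hG t om0) (hf' : fA' ≫ inc hG A' = G hG t om0)
    (x : B ⟶ d) (x' : B' ⟶ d) {f : WC hG} (s s' : f ⟶ ob hG (L.c t))
    (h : s ≫ fA ≫ inc hG x = s' ≫ fA' ≫ inc hG x') :
    Thru s (inc hG (L.al t)) ∨ Thru s' (inc hG (L.al t)) ∨
      (s = s' ∧ L.hm t x omA = L.hm t x' omA') := by
  by_cases hs : Thru s (inc hG (L.al t))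
  · exact Or.inl hs
  · by_cases hs' : Thru s' (inc hG (L.al t))
    · exact Or.inr (Or.inl hs')
    · right; right
      rw [gen_lift hG om0 A omA hA fA hf, gen_lift hG om0 A' omA' hA' fA' hf', G_inc, G_inc] at h
      obtain ⟨h1, h2⟩ := nf_inj' hG hs hs' h
      exact ⟨h2, h1⟩

/-- (G5) for two different letters over the same source. -/
theorem G5' {t' : L.T} (ht : t ≠ t') {d : D} (om : L.H t d) (om' : L.H t' d)
    {f : WC hG} (s : f ⟶ ob hG (L.c t)) (s' : f ⟶ ob hG (L.c t'))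
    (h : s ≫ G hG t om = s' ≫ G hG t' om') :
    Thru s (inc hG (L.al t)) ∨ Thru s' (inc hG (L.al t')) := by
  by_contra hc
  push Not at hc
  obtain ⟨h1, -⟩ := nf_inj hG hc.1 hc.2 h
  exact ht h1

end gen

section step

variable {D : Type u} [Category.{u} D] {L : Letters.{u, u, u, u} D} (hG : L.Good)

/-- The inclusion functor. -/
noncomputable def Inc : D ⥤ WC hG where
  obj := ob hG
  map := inc hG
  map_id := inc_id hG
  map_comp := inc_comp hG

@[simp] theorem Inc_obj (x : D) : (Inc hG).obj x = ob hG x := rfl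

@[simp] theorem Inc_map {x y : D} (f : x ⟶ y) : (Inc hG).map f = inc hG f := rfl

/-- (N), word form. -/
theorem nd_word {d b : D} (t : L.T) (om : L.H t b) (m : ob hG d ⟶ ob hG (L.c t))
    (h : ¬ Thru m (inc hG (L.al t))) :
    ∃ (P : D) (π : P ⟶ d) (π' : P ⟶ L.a (L.n t)),
      IsPB (inc hG π) (inc hG π') m (inc hG (L.al t)) ∧
      inc hG π ≫ m ≫ G hG t om = inc hG (π' ≫ L.io (L.n t) ≫ L.gam t om) ∧
      (∀ {e : D} (u : ob hG e ⟶ ob hG d) (y : e ⟶ b), u ≫ m ≫ G hG t om = inc hG y →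
        Thru u (inc hG π)) ∧
      (∀ {e : D} (y : e ⟶ b), (Thru (L.gam t om) y ∧ Thru (m ≫ G hG t om) (inc hG y)) ∨
        ∀ {f : WC hG} (u : f ⟶ ob hG d) (v : f ⟶ ob hG e),
          u ≫ m ≫ G hG t om = v ≫ inc hG y → Thru u (inc hG π)) ∧
      ¬ Thru (𝟙 d) π := by
  obtain ⟨P, π, π', hP⟩ := pull_new_old hG m (L.al t) h
  refine ⟨P, π, π', hP, ?_, ?_, ?_, ?_⟩
  · rw [← Category.assoc, hP.1, Category.assoc, al_G, ← inc_comp]; rfl
  · intro e u y h1
    rw [← Category.assoc] at h1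
    obtain ⟨k, hk⟩ := G6 hG om (u ≫ m) y h1
    exact hP.thru u k hk.symm
  · intro e y
    by_cases hy : ∃ om1 : L.H t e, L.hm t y om1 = om
    · obtain ⟨om1, rfl⟩ := hy
      exact Or.inl ⟨⟨L.gam t om1, (L.gam_nat t y om1).symm⟩, ⟨m ≫ G hG t om1, by
        rw [Category.assoc, G_inc]⟩⟩
    · right
      intro f u v h1
      rw [← Category.assoc] at h1
      obtain ⟨k, hk⟩ := G4 hG om y hy v (u ≫ m) h1.symm
      exact hP.thru u k hk.symm
  · rintro ⟨σ, hσ⟩
    apply h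
    refine ⟨inc hG (σ ≫ π'), ?_⟩
    rw [inc_comp, Category.assoc, ← hP.1, ← Category.assoc, ← inc_comp, hσ, inc_id,
      Category.id_comp]

/-- The data (N) of a new map in normal form. -/
theorem nd_new {d b : D} (t : L.T) (om : L.H t b) (m : ob hG d ⟶ ob hG (L.c t))
    (h : ¬ Thru m (inc hG (L.al t))) :
    Nonempty (SND (Inc hG) L.a L.io (d := d) (b := b) (m ≫ G hG t om)) := by
  obtain ⟨P, π, π', -, h1, h2, h3, h4⟩ := nd_word hG t om m h
  exact ⟨{ n := L.n t, A := L.gam t om, P := P, π := π, π' := π', eq := h1,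
           N0 := fun u y hu => h2 u y hu, N1 := fun y => h3 y, N2 := h4 }⟩

/-- Every map is old or has the data (N). -/
theorem nd {d b : D} (x : (Inc hG).obj d ⟶ (Inc hG).obj b) :
    (∃ y, (Inc hG).map y = x) ∨ Nonempty (SND (Inc hG) L.a L.io x) := by
  rcases cases_hom hG x with ⟨g, rfl⟩ | ⟨t, om, m, hm, rfl⟩
  · exact Or.inl ⟨g, rfl⟩
  · exact Or.inr (nd_new hG t om m hm)

/-- (G3), word form: `π1` is the projection of any data (N). -/
theorem G3_word {t : L.T} {b : D} (om0 : L.H t b) {d : D} (p : ob hG d ⟶ ob hG b)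
    {P1 : D} (π1 : P1 ⟶ d)
    (N0 : ∀ {e : D} (u : ob hG e ⟶ ob hG d) (y : e ⟶ b), u ≫ p = inc hG y →
      Thru u (inc hG π1))
    (N2 : ¬ Thru (𝟙 d) π1)
    (h : ob hG (L.a (L.n t + 1)) ⟶ ob hG d)
    (hh : h ≫ p = inc hG (L.gam t om0)) {f : WC hG} (g : f ⟶ ob hG d)
    (s : f ⟶ ob hG (L.c t)) (e : g ≫ p = s ≫ G hG t om0) :
    Thru g (inc hG π1) ∨ Thru s (inc hG (L.al t)) := by
  by_cases hs : Thru s (inc hG (L.al t))
  · exact Or.inr hs
  left
  rcases cases_hom hG p with ⟨p', rfl⟩ | ⟨t', om', m, hm, rfl⟩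
  · exact absurd (thru_of_inc hG (N0 (𝟙 _) p' (Category.id_comp _))) N2
  · obtain ⟨P, π, π', hP⟩ := pull_new_old hG m (L.al t') hm
    by_cases hg : Thru (g ≫ m) (inc hG (L.al t'))
    · obtain ⟨k, hk⟩ := hg
      refine (hP.thru g k hk.symm).trans (N0 (inc hG π) (π' ≫ L.bet t' om') ?_)
      rw [← Category.assoc, hP.1, Category.assoc, al_G, ← inc_comp]
    · exfalso
      rw [← Category.assoc] at e
      obtain ⟨rfl, h1, h2⟩ := nf_inj hG hg hs e
      simp only at h1 h2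
      subst h1
      obtain ⟨k, hk⟩ := G6 hG om' (h ≫ m) (L.gam t' om') (by rw [Category.assoc]; exact hh)
      have h4 : k ≫ inc hG (L.bet t' om') = inc hG (L.gam t' om') := by
        rw [← al_G, ← Category.assoc, hk, Category.assoc]; exact hh
      have h5 : k ≫ inc hG (L.io (L.n t')) = inc hG (𝟙 _) := by
        apply inc_cancel hG (L.gam t' om')
        rw [Category.assoc, ← inc_comp, ← inc_comp, Category.id_comp]
        exact h4
      obtain ⟨k', -, hk'⟩ := old_div hG k (L.io (L.n t')) (𝟙 _) h5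
      exact hG.io_ns _ ⟨k', hk'⟩

/-- (G3), for arbitrary data (N). -/
theorem G3 {t : L.T} {b : D} (om0 : L.H t b) {d : D} (p : (Inc hG).obj d ⟶ (Inc hG).obj b)
    (N : SND (Inc hG) L.a L.io p) (h : (Inc hG).obj (L.a (L.n t + 1)) ⟶ (Inc hG).obj d)
    (hh : h ≫ p = (Inc hG).map (L.gam t om0)) {f : WC hG} (g : f ⟶ (Inc hG).obj d)
    (s : f ⟶ (Inc hG).obj (L.c t)) (e : g ≫ p = s ≫ G hG t om0) :
    Thru g ((Inc hG).map N.π) ∨ Thru s ((Inc hG).map (L.al t)) :=
  G3_word hG om0 p N.π (fun u y hu => N.N0 u y hu) N.N2 h hh g s e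

end step

end Vale.Agent.P323.H885
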